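import Mathlib

/-!
P111 (cotype-cotype conjecture), a small-constant special case.

Let `X` be a real normed space, `q > 0`, and suppose that the two-vector case of the cotype-`q`
inequality of the problem holds with a constant `C < 2 ^ (1 / q)`:
`(‖u‖ ^ q + ‖v‖ ^ q) ^ (1 / q) ≤ C * sqrt ((‖u + v‖ ^ 2 + ‖u - v‖ ^ 2) / 2)` for all `u, v`
(the right-hand side is `C * (E ‖ε₁ u + ε₂ v‖ ^ 2) ^ (1 / 2)`).  Then, with `ρ = C / 2 ^ (1 / q) < 1`:
(1) `X` is uniformly nonsquare, explicitly `min ‖a + b‖ ‖a - b‖ ≤ 2 ρ r` when `‖a‖, ‖b‖ ≤ r`;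
(2) any `2 ^ k` vectors of norm at most one have a combination with coefficients of absolute sum
one and norm at most `ρ ^ k`;
(3) `X` does not contain the `ℓ₁^s` uniformly: for every `D` there is `s` such that no `s` vectors
of `X` are `D`-equivalent to the unit vector basis of `ℓ₁^s`.
No approximation property and no hypothesis on the dual are used.
-/

namespace Vale.Agent.Results.P111.A_SmallCotypeConstant

open Finset

variable {X : Type*} [NormedAddCommGroup X] [NormedSpace ℝ X]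

/-- (1): uniform nonsquareness from the two-vector cotype inequality. -/
theorem nsq (q C : ℝ) (hq : 0 < q)
    (h : ∀ u v : X, (‖u‖ ^ q + ‖v‖ ^ q) ^ (1 / q)
        ≤ C * Real.sqrt ((‖u + v‖ ^ 2 + ‖u - v‖ ^ 2) / 2))
    (hC0 : 0 ≤ C) (r : ℝ) (a b : X) (ha : ‖a‖ ≤ r) (hb : ‖b‖ ≤ r) :
    min ‖a + b‖ ‖a - b‖ ≤ 2 * (C / 2 ^ (1 / q)) * r := by
  have hr : 0 ≤ r := le_trans (norm_nonneg a) ha
  set m : ℝ := min ‖a + b‖ ‖a - b‖ with hm
  have hm0 : 0 ≤ m := le_min (norm_nonneg _) (norm_nonneg _)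
  have h2pos : (0 : ℝ) < 2 ^ (1 / q) := Real.rpow_pos_of_pos (by norm_num) _
  have h1 : m ^ q ≤ ‖a + b‖ ^ q := Real.rpow_le_rpow hm0 (min_le_left _ _) hq.le
  have h2 : m ^ q ≤ ‖a - b‖ ^ q := Real.rpow_le_rpow hm0 (min_le_right _ _) hq.le
  have hmq : 0 ≤ m ^ q := Real.rpow_nonneg hm0 q
  have h3 : (2 * m ^ q) ^ (1 / q) ≤ (‖a + b‖ ^ q + ‖a - b‖ ^ q) ^ (1 / q) :=
    Real.rpow_le_rpow (by positivity) (by linarith) (by positivity)
  have h4 : (2 * m ^ q) ^ (1 / q) = 2 ^ (1 / q) * m := by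
    rw [Real.mul_rpow (by norm_num) hmq, one_div, Real.rpow_rpow_inv hm0 hq.ne']
  have e1 : (a + b) + (a - b) = (2 : ℝ) • a := by
    rw [two_smul]; abel
  have e2 : (a + b) - (a - b) = (2 : ℝ) • b := by
    rw [two_smul]; abel
  have n1 : ‖(a + b) + (a - b)‖ ≤ 2 * r := by
    rw [e1, norm_smul, Real.norm_eq_abs, abs_of_pos (by norm_num : (0 : ℝ) < 2)]
    linarith
  have n2 : ‖(a + b) - (a - b)‖ ≤ 2 * r := by
    rw [e2, norm_smul, Real.norm_eq_abs, abs_of_pos (by norm_num : (0 : ℝ) < 2)]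
    linarith
  have h5 : Real.sqrt ((‖(a + b) + (a - b)‖ ^ 2 + ‖(a + b) - (a - b)‖ ^ 2) / 2) ≤ 2 * r := by
    rw [show (2 : ℝ) * r = Real.sqrt ((2 * r) ^ 2) from (Real.sqrt_sq (by linarith)).symm]
    apply Real.sqrt_le_sqrt
    have k1 : ‖(a + b) + (a - b)‖ ^ 2 ≤ (2 * r) ^ 2 :=
      pow_le_pow_left₀ (norm_nonneg _) n1 2
    have k2 : ‖(a + b) - (a - b)‖ ^ 2 ≤ (2 * r) ^ 2 :=
      pow_le_pow_left₀ (norm_nonneg _) n2 2
    linarith
  have h6 : 2 ^ (1 / q) * m ≤ C * (2 * r) := by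
    calc 2 ^ (1 / q) * m = (2 * m ^ q) ^ (1 / q) := h4.symm
      _ ≤ (‖a + b‖ ^ q + ‖a - b‖ ^ q) ^ (1 / q) := h3
      _ ≤ C * Real.sqrt ((‖(a + b) + (a - b)‖ ^ 2 + ‖(a + b) - (a - b)‖ ^ 2) / 2) := h (a + b) (a - b)
      _ ≤ C * (2 * r) := mul_le_mul_of_nonneg_left h5 hC0
  have h7 : m ≤ C * (2 * r) / 2 ^ (1 / q) := by
    rw [le_div_iff₀ h2pos]; linarith
  calc m ≤ C * (2 * r) / 2 ^ (1 / q) := h7
    _ = 2 * (C / 2 ^ (1 / q)) * r := by ring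

/-- (2) over sequences: a combination of the first `2 ^ k` vectors with small norm. -/
theorem block_seq (ρ : ℝ)
    (hns : ∀ (r : ℝ) (a b : X), ‖a‖ ≤ r → ‖b‖ ≤ r → min ‖a + b‖ ‖a - b‖ ≤ 2 * ρ * r) :
    ∀ (k : ℕ) (y : ℕ → X), (∀ i, ‖y i‖ ≤ 1) →
      ∃ a : ℕ → ℝ, ∑ i ∈ range (2 ^ k), |a i| = 1 ∧
        ‖∑ i ∈ range (2 ^ k), a i • y i‖ ≤ ρ ^ k := by
  intro k
  induction k with
  | zero =>
    intro y hy
    refine ⟨fun _ => 1, ?_, ?_⟩
    · simp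
    · simpa using hy 0
  | succ k ih =>
    intro y hy
    obtain ⟨a1, ha1, hz1⟩ := ih y hy
    obtain ⟨a2, ha2, hz2⟩ := ih (fun i => y (2 ^ k + i)) (fun i => hy _)
    set z1 : X := ∑ i ∈ range (2 ^ k), a1 i • y i with hz1d
    set z2 : X := ∑ i ∈ range (2 ^ k), a2 i • y (2 ^ k + i) with hz2d
    have hmin := hns (ρ ^ k) z1 z2 hz1 hz2
    have key : ∃ t : ℝ, |t| = 1 ∧ ‖z1 + t • z2‖ ≤ 2 * ρ * ρ ^ k := by
      rcases min_le_iff.1 hmin with h | h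
      · exact ⟨1, by simp, by simpa using h⟩
      · refine ⟨-1, by simp, ?_⟩
        have : z1 + (-1 : ℝ) • z2 = z1 - z2 := by rw [neg_one_smul, sub_eq_add_neg]
        rw [this]; exact h
    obtain ⟨t, ht, hnt⟩ := key
    refine ⟨fun i => if i < 2 ^ k then a1 i / 2 else t * a2 (i - 2 ^ k) / 2, ?_, ?_⟩
    · rw [show 2 ^ (k + 1) = 2 ^ k + 2 ^ k by ring, sum_range_add]
      have s1 : ∑ x ∈ range (2 ^ k), |if x < 2 ^ k then a1 x / 2 else t * a2 (x - 2 ^ k) / 2|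
          = ∑ x ∈ range (2 ^ k), |a1 x| / 2 := by
        apply sum_congr rfl
        intro x hx
        rw [if_pos (mem_range.1 hx), abs_div, abs_of_pos (by norm_num : (0 : ℝ) < 2)]
      have s2 : ∑ x ∈ range (2 ^ k),
          |if 2 ^ k + x < 2 ^ k then a1 (2 ^ k + x) / 2 else t * a2 (2 ^ k + x - 2 ^ k) / 2|
          = ∑ x ∈ range (2 ^ k), |a2 x| / 2 := by
        apply sum_congr rfl
        intro x _
        rw [if_neg (by omega), Nat.add_sub_cancel_left, abs_div, abs_mul, ht, one_mul,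
          abs_of_pos (by norm_num : (0 : ℝ) < 2)]
      rw [s1, s2, ← sum_div, ← sum_div, ha1, ha2]
      norm_num
    · rw [show 2 ^ (k + 1) = 2 ^ k + 2 ^ k by ring, sum_range_add]
      have s1 : ∑ x ∈ range (2 ^ k),
          (if x < 2 ^ k then a1 x / 2 else t * a2 (x - 2 ^ k) / 2) • y x
          = (1 / 2 : ℝ) • z1 := by
        rw [hz1d, smul_sum]
        apply sum_congr rfl
        intro x hx
        rw [if_pos (mem_range.1 hx), smul_smul]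
        congr 1
        ring
      have s2 : ∑ x ∈ range (2 ^ k),
          (if 2 ^ k + x < 2 ^ k then a1 (2 ^ k + x) / 2 else t * a2 (2 ^ k + x - 2 ^ k) / 2)
            • y (2 ^ k + x)
          = (1 / 2 : ℝ) • t • z2 := by
        rw [hz2d, smul_sum, smul_sum]
        apply sum_congr rfl
        intro x _
        rw [if_neg (by omega), Nat.add_sub_cancel_left, smul_smul, smul_smul]
        congr 1
        ring
      rw [s1, s2, ← smul_add, norm_smul, Real.norm_eq_abs,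
        abs_of_pos (by norm_num : (0 : ℝ) < 1 / 2), pow_succ]
      linarith

/-- (2): the same for families indexed by `Fin (2 ^ k)`. -/
theorem block (ρ : ℝ)
    (hns : ∀ (r : ℝ) (a b : X), ‖a‖ ≤ r → ‖b‖ ≤ r → min ‖a + b‖ ‖a - b‖ ≤ 2 * ρ * r)
    (k : ℕ) (y : Fin (2 ^ k) → X) (hy : ∀ i, ‖y i‖ ≤ 1) :
    ∃ a : Fin (2 ^ k) → ℝ, ∑ i, |a i| = 1 ∧ ‖∑ i, a i • y i‖ ≤ ρ ^ k := by
  obtain ⟨a, ha, hz⟩ := block_seq ρ hns k (fun i => if h : i < 2 ^ k then y ⟨i, h⟩ else 0)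
    (fun i => by
      by_cases h : i < 2 ^ k
      · simp only [dif_pos h]; exact hy _
      · simp only [dif_neg h, norm_zero]; norm_num)
  refine ⟨fun i => a i, ?_, ?_⟩
  · rw [← ha]
    exact Fin.sum_univ_eq_sum_range (fun i => |a i|) (2 ^ k)
  · have e : ∑ i : Fin (2 ^ k), a i • y i
        = ∑ i ∈ range (2 ^ k), a i • (if h : i < 2 ^ k then y ⟨i, h⟩ else 0) := by
      rw [← Fin.sum_univ_eq_sum_range
        (fun i => a i • (if h : i < 2 ^ k then y ⟨i, h⟩ else 0)) (2 ^ k)]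
      apply sum_congr rfl
      intro i _
      simp only [dif_pos i.isLt, Fin.eta]
    rw [e]
    exact hz

/-- (3): no uniform copies of `ℓ₁^s`. -/
theorem no_l1 (ρ : ℝ) (hρ1 : ρ < 1)
    (hns : ∀ (r : ℝ) (a b : X), ‖a‖ ≤ r → ‖b‖ ≤ r → min ‖a + b‖ ‖a - b‖ ≤ 2 * ρ * r)
    (D : ℝ) :
    ∃ s : ℕ, ∀ x : Fin s → X, ∃ a : Fin s → ℝ,
      ¬ (∑ i, |a i| ≤ D * ‖∑ i, a i • x i‖ ∧ ‖∑ i, a i • x i‖ ≤ ∑ i, |a i|) := by
  have hk : ∃ k : ℕ, D * ρ ^ k < 1 := by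
    by_cases hD : D ≤ 0
    · exact ⟨0, by simp; linarith⟩
    · push Not at hD
      obtain ⟨k, hk⟩ := exists_pow_lt_of_lt_one (one_div_pos.2 hD) hρ1
      refine ⟨k, ?_⟩
      have := mul_lt_mul_of_pos_left hk hD
      rwa [mul_one_div_cancel hD.ne'] at this
  obtain ⟨k, hk⟩ := hk
  refine ⟨2 ^ k, fun x => ?_⟩
  by_contra hcon
  push Not at hcon
  have hx : ∀ i, ‖x i‖ ≤ 1 := by
    intro i
    have := (hcon (Pi.single i 1)).2
    have e1 : ∑ j, (Pi.single i (1 : ℝ) : Fin (2 ^ k) → ℝ) j • x j = x i := by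
      rw [sum_eq_single i]
      · simp
      · intro j _ hj
        simp [Pi.single_eq_of_ne hj]
      · intro hi
        exact absurd (mem_univ i) hi
    have e2 : ∑ j, |(Pi.single i (1 : ℝ) : Fin (2 ^ k) → ℝ) j| = 1 := by
      rw [sum_eq_single i]
      · simp
      · intro j _ hj
        simp [Pi.single_eq_of_ne hj]
      · intro hi
        exact absurd (mem_univ i) hi
    rwa [e1, e2] at this
  obtain ⟨a, ha, hz⟩ := block ρ hns k x hx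
  have h1 := (hcon a).1
  rw [ha] at h1
  by_cases hD : D ≤ 0
  · have : D * ‖∑ i, a i • x i‖ ≤ 0 := mul_nonpos_of_nonpos_of_nonneg hD (norm_nonneg _)
    linarith
  · push Not at hD
    have : D * ‖∑ i, a i • x i‖ ≤ D * ρ ^ k := mul_le_mul_of_nonneg_left hz hD.le
    linarith

/-- The hypotheses are not vacuous: in every real inner product space the two-vector inequality
holds with `q = 2` and `C = 1`, and `1 < 2 ^ (1 / 2)`. -/
theorem inner_product_example (E : Type*) [NormedAddCommGroup E] [InnerProductSpace ℝ E] :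
    (1 : ℝ) < 2 ^ (1 / (2 : ℝ)) ∧
    ∀ u v : E, (‖u‖ ^ (2 : ℝ) + ‖v‖ ^ (2 : ℝ)) ^ (1 / (2 : ℝ))
      ≤ 1 * Real.sqrt ((‖u + v‖ ^ 2 + ‖u - v‖ ^ 2) / 2) := by
  refine ⟨Real.one_lt_rpow (by norm_num) (by norm_num), fun u v => ?_⟩
  rw [one_mul, ← Real.sqrt_eq_rpow, Real.rpow_two, Real.rpow_two]
  apply Real.sqrt_le_sqrt
  have hp := parallelogram_law_with_norm ℝ u v
  nlinarith [hp]

theorem result (X : Type*) [NormedAddCommGroup X] [NormedSpace ℝ X] (q C : ℝ) (hq : 0 < q)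
    (hC0 : 0 ≤ C) (hC : C < 2 ^ (1 / q))
    (h : ∀ u v : X, (‖u‖ ^ q + ‖v‖ ^ q) ^ (1 / q)
        ≤ C * Real.sqrt ((‖u + v‖ ^ 2 + ‖u - v‖ ^ 2) / 2)) :
    (∀ (r : ℝ) (a b : X), ‖a‖ ≤ r → ‖b‖ ≤ r →
        min ‖a + b‖ ‖a - b‖ ≤ 2 * (C / 2 ^ (1 / q)) * r) ∧
    (∀ (k : ℕ) (y : Fin (2 ^ k) → X), (∀ i, ‖y i‖ ≤ 1) →
        ∃ a : Fin (2 ^ k) → ℝ, ∑ i, |a i| = 1 ∧ ‖∑ i, a i • y i‖ ≤ (C / 2 ^ (1 / q)) ^ k) ∧
    (∀ D : ℝ, ∃ s : ℕ, ∀ x : Fin s → X, ∃ a : Fin s → ℝ,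
        ¬ (∑ i, |a i| ≤ D * ‖∑ i, a i • x i‖ ∧ ‖∑ i, a i • x i‖ ≤ ∑ i, |a i|)) := by
  have h2pos : (0 : ℝ) < 2 ^ (1 / q) := Real.rpow_pos_of_pos (by norm_num) _
  have hns := fun (r : ℝ) (a b : X) (ha : ‖a‖ ≤ r) (hb : ‖b‖ ≤ r) => nsq q C hq h hC0 r a b ha hb
  have hρ1 : C / 2 ^ (1 / q) < 1 := (div_lt_one h2pos).2 hC
  exact ⟨hns, fun k y hy => block _ hns k y hy, fun D => no_l1 _ hρ1 hns D⟩

end Vale.Agent.Results.P111.A_SmallCotypeConstant
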