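import Vale.Agent.Results.P111.A_SmallCotypeConstant

/-!
P111 (cotype-cotype conjecture), the small-constant special case with an explicit size.

Same hypothesis as `A_SmallCotypeConstant`: the two-vector case of the cotype-`q` inequality with
a constant `C < 2 ^ (1 / q)`. With `ρ = C / 2 ^ (1 / q) < 1` the three conclusions of
`A_SmallCotypeConstant` hold, and in addition the size in (3) is explicit:
(4) if `D * ρ ^ k < 1`, then no `2 ^ k` vectors of `X` are `D`-equivalent to the unit vector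
basis of `ℓ₁^(2^k)`.
-/

namespace Vale.Agent.Results.P111.B_SmallCotypeExplicitSize

open Finset
open Vale.Agent.Results.P111.A_SmallCotypeConstant

variable {X : Type*} [NormedAddCommGroup X] [NormedSpace ℝ X]

/-- (4): no `2 ^ k` vectors are `D`-equivalent to the `ℓ₁` basis once `D * ρ ^ k < 1`. -/
theorem no_l1_explicit (ρ : ℝ)
    (hns : ∀ (r : ℝ) (a b : X), ‖a‖ ≤ r → ‖b‖ ≤ r → min ‖a + b‖ ‖a - b‖ ≤ 2 * ρ * r)
    (D : ℝ) (k : ℕ) (hk : D * ρ ^ k < 1) (x : Fin (2 ^ k) → X) :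
    ∃ a : Fin (2 ^ k) → ℝ,
      ¬ (∑ i, |a i| ≤ D * ‖∑ i, a i • x i‖ ∧ ‖∑ i, a i • x i‖ ≤ ∑ i, |a i|) := by
  by_contra hcon
  push Not at hcon
  have hx : ∀ i, ‖x i‖ ≤ 1 := by
    intro i
    have := (hcon (Pi.single i 1)).2
    have e1 : ∑ j, (Pi.single i (1 : ℝ) : Fin (2 ^ k) → ℝ) j • x j = x i := by
      rw [sum_eq_single i]
      · simp
      · intro j _ hj
        simp [Pi.single_eq_of_ne hj]
      · intro hi
        exact absurd (mem_univ i) hi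
    have e2 : ∑ j, |(Pi.single i (1 : ℝ) : Fin (2 ^ k) → ℝ) j| = 1 := by
      rw [sum_eq_single i]
      · simp
      · intro j _ hj
        simp [Pi.single_eq_of_ne hj]
      · intro hi
        exact absurd (mem_univ i) hi
    rwa [e1, e2] at this
  obtain ⟨a, ha, hz⟩ := block ρ hns k x hx
  have h1 := (hcon a).1
  rw [ha] at h1
  by_cases hD : D ≤ 0
  · have : D * ‖∑ i, a i • x i‖ ≤ 0 := mul_nonpos_of_nonpos_of_nonneg hD (norm_nonneg _)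
    linarith
  · push Not at hD
    have : D * ‖∑ i, a i • x i‖ ≤ D * ρ ^ k := mul_le_mul_of_nonneg_left hz hD.le
    linarith

theorem result (X : Type*) [NormedAddCommGroup X] [NormedSpace ℝ X] (q C : ℝ) (hq : 0 < q)
    (hC0 : 0 ≤ C) (hC : C < 2 ^ (1 / q))
    (h : ∀ u v : X, (‖u‖ ^ q + ‖v‖ ^ q) ^ (1 / q)
        ≤ C * Real.sqrt ((‖u + v‖ ^ 2 + ‖u - v‖ ^ 2) / 2)) :
    (∀ (r : ℝ) (a b : X), ‖a‖ ≤ r → ‖b‖ ≤ r →
        min ‖a + b‖ ‖a - b‖ ≤ 2 * (C / 2 ^ (1 / q)) * r) ∧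
    (∀ (k : ℕ) (y : Fin (2 ^ k) → X), (∀ i, ‖y i‖ ≤ 1) →
        ∃ a : Fin (2 ^ k) → ℝ, ∑ i, |a i| = 1 ∧ ‖∑ i, a i • y i‖ ≤ (C / 2 ^ (1 / q)) ^ k) ∧
    (∀ D : ℝ, ∃ s : ℕ, ∀ x : Fin s → X, ∃ a : Fin s → ℝ,
        ¬ (∑ i, |a i| ≤ D * ‖∑ i, a i • x i‖ ∧ ‖∑ i, a i • x i‖ ≤ ∑ i, |a i|)) ∧
    (∀ (D : ℝ) (k : ℕ), D * (C / 2 ^ (1 / q)) ^ k < 1 →
        ∀ x : Fin (2 ^ k) → X, ∃ a : Fin (2 ^ k) → ℝ,
          ¬ (∑ i, |a i| ≤ D * ‖∑ i, a i • x i‖ ∧ ‖∑ i, a i • x i‖ ≤ ∑ i, |a i|)) := by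
  have h2pos : (0 : ℝ) < 2 ^ (1 / q) := Real.rpow_pos_of_pos (by norm_num) _
  have hns := fun (r : ℝ) (a b : X) (ha : ‖a‖ ≤ r) (hb : ‖b‖ ≤ r) => nsq q C hq h hC0 r a b ha hb
  have hρ1 : C / 2 ^ (1 / q) < 1 := (div_lt_one h2pos).2 hC
  exact ⟨hns, fun k y hy => block _ hns k y hy, fun D => no_l1 _ hρ1 hns D,
    fun D k hk x => no_l1_explicit _ hns D k hk x⟩

end Vale.Agent.Results.P111.B_SmallCotypeExplicitSize
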